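import Vale.Agent.Lib.P066.Main

/-- Shareshian-Wachs positivity for all natural unit interval graphs with `h i ≤ i + 2`:
the chromatic quasisymmetric function is a combination of the `e_lam` with coefficients in `ℕ[q]`,
the same for every number `N` of variables. -/
theorem Vale.Agent.Results.P066.A_K4free.result {n : ℕ} (hn : 0 < n) (h : Fin n → Fin n)
    (hm : Monotone h) (hi : ∀ i, i ≤ h i) (h3 : ∀ i : Fin n, (h i : ℕ) ≤ i + 2) :
    ∃ c : n.Partition → Polynomial ℕ, ∀ N : ℕ,
      Vale.Agent.Lib.P066.chromQ h N = ∑ lam : n.Partition,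
        MvPolynomial.C ((c lam).map (Nat.castRingHom ℤ)) *
          MvPolynomial.esymmPart (Fin N) (Polynomial ℤ) lam :=
  Vale.Agent.Lib.P066.main_k4free h hn hm hi h3
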