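import Vale.Agent.Lib.P066.Hook

open Vale.Agent.Lib.P066

namespace Vale.Agent.Results.P066.B_hooks

/-- For every natural unit interval graph `G(h)` on `n` vertices, the coefficient of `e_a e_1^b`
(with `a ≥ 2`, `a + b = n`) in the expansion of the chromatic quasisymmetric function in the basis
`e_λ` has nonnegative integer coefficients. -/
theorem result {n : ℕ} (h : Fin n → Fin n) (hm : Monotone h) (hi : ∀ i, i ≤ h i)
    (c : n.Partition → Polynomial ℤ) (hc : IsEExpansion h c) (a b : ℕ) (ha : 2 ≤ a)
    (l : n.Partition) (hl : l.parts = a ::ₘ Multiset.replicate b 1) : NonnegCoeffs (c l) :=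
  coeff_hook_nonneg hm hc a b ha l hl

end Vale.Agent.Results.P066.B_hooks
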