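import Vale.Agent.Lib.P066.Hook1

open Vale.Agent.Lib.P066

namespace Vale.Agent.Results.P066.C_two_part_formula

/-- The explicit formula for every two-part elementary coefficient: with `[m]` the `q`-integer and
`τ(U)` the product of `[a_j(U)]` over the non-minimal vertices `j` of `U` (`a_j(U)` is the number of
lower neighbours of `j` in `U`),
`(1 + δ_{ab}) c_{(a,b)} = [a][b] ∑_{|U| = a} q^{e(U, Uᶜ)} τ(U) τ(Uᶜ) - [n] τ(V)`,
where `e(U, Uᶜ)` counts the edges from a smaller vertex in `U` to a larger vertex in `Uᶜ`. -/
theorem result {n : ℕ} (h : Fin n → Fin n) (hm : Monotone h) (hi : ∀ i, i ≤ h i)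
    (c : n.Partition → Polynomial ℤ) (hc : IsEExpansion h c)
    (a b : ℕ) (ha : 0 < a) (hb : 0 < b) (hab : a + b = n)
    (l : n.Partition) (hl : l.parts = {a, b}) :
    (if a = b then 2 else 1) * c l =
      qI Polynomial.X a * qI Polynomial.X b *
        ∑ U ∈ Finset.powersetCard a (Finset.univ : Finset (Fin n)),
          Polynomial.X ^ eCount (IsEdge h) U (Finset.univ \ U) *
            tauU (IsEdge h) Polynomial.X U * tauU (IsEdge h) Polynomial.X (Finset.univ \ U)
      - qI Polynomial.X n * tauU (IsEdge h) Polynomial.X Finset.univ := by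
  have h1 := coeff_two_part_int hm hc a b ha hb hab l hl
  have h2 : ∑ U ∈ Finset.powersetCard a (Finset.univ : Finset (Fin n)),
      rZ h U * Polynomial.X ^ eCount (IsEdge h) U (Finset.univ \ U) * rZ h (Finset.univ \ U) =
      qI Polynomial.X a * qI Polynomial.X b *
        ∑ U ∈ Finset.powersetCard a (Finset.univ : Finset (Fin n)),
          Polynomial.X ^ eCount (IsEdge h) U (Finset.univ \ U) *
            tauU (IsEdge h) Polynomial.X U * tauU (IsEdge h) Polynomial.X (Finset.univ \ U) := by
    rw [Finset.mul_sum]
    refine Finset.sum_congr rfl fun U hU => ?_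
    have hc1 := (Finset.mem_powersetCard.mp hU).2
    have hc2 : (Finset.univ \ U).card = b := by
      rw [Finset.card_sdiff_of_subset (Finset.subset_univ _), Finset.card_univ, Fintype.card_fin,
        hc1]
      omega
    unfold rZ rU
    rw [hc1, hc2]
    ring
  rw [h2] at h1
  rw [h1]
  have h3 : rZ h Finset.univ = qI Polynomial.X n * tauU (IsEdge h) Polynomial.X Finset.univ := by
    unfold rZ rU
    rw [Finset.card_univ, Fintype.card_fin]
  rw [h3]
  ring

end Vale.Agent.Results.P066.C_two_part_formula
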