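import Vale.Agent.Lib.P066.Hook1

open Vale.Agent.Lib.P066

namespace Vale.Agent.Results.P066.D_pred_one

/-- For every natural unit interval graph `G(h)` on `n ≥ 2` vertices, the coefficient of
`e_{n-1} e_1` in the expansion of the chromatic quasisymmetric function in the basis `e_λ` has
nonnegative integer coefficients. -/
theorem result {n : ℕ} (h : Fin n → Fin n) (hm : Monotone h) (hi : ∀ i, i ≤ h i)
    (c : n.Partition → Polynomial ℤ) (hc : IsEExpansion h c) (hn : 2 ≤ n)
    (l : n.Partition) (hl : l.parts = {n - 1, 1}) : NonnegCoeffs (c l) :=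
  coeff_pred_one_nonneg hm hc hn l hl

end Vale.Agent.Results.P066.D_pred_one
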